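import Mathlib

/-!
# Channel calculus for finite matrices and the Hoeffding (Bessel) inequality

`W` is an isometry from the space of `a x b` to the space of `c x d`.  `A`, `B` are density
matrices, `C` is the partial trace of `W (A kron B) W^H`.
-/

namespace Vale.P369.H587

open Matrix Complex
open scoped Kronecker ComplexOrder

set_option linter.unusedSectionVars false

variable {a b c d : Type*} [Fintype a] [Fintype b] [Fintype c] [Fintype d]
  [DecidableEq a] [DecidableEq b] [DecidableEq c] [DecidableEq d]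

/-- Partial trace over the second factor. -/
def ptr2 (X : Matrix (a × b) (a × b) ℂ) : Matrix a a ℂ := fun i j => ∑ k, X (i, k) (j, k)

/-- Partial trace over the first factor. -/
def ptr1 (X : Matrix (a × b) (a × b) ℂ) : Matrix b b ℂ := fun i j => ∑ k, X (k, i) (k, j)

omit [Fintype a] [DecidableEq a] [DecidableEq b] in
@[simp] lemma ptr2_apply (X : Matrix (a × b) (a × b) ℂ) (i j : a) :
    ptr2 X i j = ∑ k, X (i, k) (j, k) := rfl

omit [Fintype b] [DecidableEq a] [DecidableEq b] in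
@[simp] lemma ptr1_apply (X : Matrix (a × b) (a × b) ℂ) (i j : b) :
    ptr1 X i j = ∑ k, X (k, i) (k, j) := rfl

omit [DecidableEq a] [DecidableEq b] in
lemma trace_ptr2 (X : Matrix (a × b) (a × b) ℂ) : (ptr2 X).trace = X.trace := by
  simp [Matrix.trace, Fintype.sum_prod_type]

omit [DecidableEq a] [DecidableEq b] in
lemma trace_ptr1 (X : Matrix (a × b) (a × b) ℂ) : (ptr1 X).trace = X.trace := by
  simp only [Matrix.trace, Fintype.sum_prod_type, diag_apply, ptr1_apply]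
  rw [Finset.sum_comm]

omit [Fintype a] [DecidableEq a] [DecidableEq b] in
lemma ptr2_add (X Y : Matrix (a × b) (a × b) ℂ) : ptr2 (X + Y) = ptr2 X + ptr2 Y := by
  ext i j; simp [Finset.sum_add_distrib]

omit [Fintype b] [DecidableEq a] [DecidableEq b] in
lemma ptr1_add (X Y : Matrix (a × b) (a × b) ℂ) : ptr1 (X + Y) = ptr1 X + ptr1 Y := by
  ext i j; simp [Finset.sum_add_distrib]

omit [Fintype a] [DecidableEq a] [DecidableEq b] in
lemma ptr2_smul (t : ℂ) (X : Matrix (a × b) (a × b) ℂ) : ptr2 (t • X) = t • ptr2 X := by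
  ext i j; simp [Finset.mul_sum]

omit [Fintype b] [DecidableEq a] [DecidableEq b] in
lemma ptr1_smul (t : ℂ) (X : Matrix (a × b) (a × b) ℂ) : ptr1 (t • X) = t • ptr1 X := by
  ext i j; simp [Finset.mul_sum]

omit [Fintype a] [DecidableEq a] [DecidableEq b] in
lemma ptr2_sub (X Y : Matrix (a × b) (a × b) ℂ) : ptr2 (X - Y) = ptr2 X - ptr2 Y := by
  ext i j; simp [Finset.sum_sub_distrib]

omit [Fintype b] [DecidableEq a] [DecidableEq b] in
lemma ptr1_sub (X Y : Matrix (a × b) (a × b) ℂ) : ptr1 (X - Y) = ptr1 X - ptr1 Y := by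
  ext i j; simp [Finset.sum_sub_distrib]

omit [Fintype a] [DecidableEq a] [DecidableEq b] in
lemma ptr2_conjTranspose (X : Matrix (a × b) (a × b) ℂ) : ptr2 Xᴴ = (ptr2 X)ᴴ := by
  ext i j; simp

omit [Fintype b] [DecidableEq a] [DecidableEq b] in
lemma ptr1_conjTranspose (X : Matrix (a × b) (a × b) ℂ) : ptr1 Xᴴ = (ptr1 X)ᴴ := by
  ext i j; simp

omit [DecidableEq a] in
/-- `Tr ((P kron 1) X) = Tr (P ptr2 X)`. -/
lemma trace_kron_one_mul (P : Matrix a a ℂ) (X : Matrix (a × b) (a × b) ℂ) :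
    ((P ⊗ₖ (1 : Matrix b b ℂ)) * X).trace = (P * ptr2 X).trace := by
  simp only [Matrix.trace, diag_apply, Matrix.mul_apply, Fintype.sum_prod_type,
    kroneckerMap_apply, ptr2_apply, Matrix.one_apply, mul_ite, mul_one, mul_zero, ite_mul,
    zero_mul, Finset.sum_ite_eq, Finset.mem_univ, if_true, Finset.mul_sum]
  refine Finset.sum_congr rfl fun i _ => ?_
  rw [Finset.sum_comm]

omit [DecidableEq b] in
lemma trace_one_kron_mul (P : Matrix b b ℂ) (X : Matrix (a × b) (a × b) ℂ) :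
    (((1 : Matrix a a ℂ) ⊗ₖ P) * X).trace = (P * ptr1 X).trace := by
  simp only [Matrix.trace, diag_apply, Matrix.mul_apply, Fintype.sum_prod_type,
    kroneckerMap_apply, ptr1_apply, Matrix.one_apply, ite_mul, one_mul, zero_mul,
    Finset.mul_sum]
  have h : ∀ (x : a) (y : b), ∑ x1 : a, ∑ y1 : b,
      (if x = x1 then P y y1 * X (x1, y1) (x, y) else 0) = ∑ y1, P y y1 * X (x, y1) (x, y) := by
    intro x y
    rw [Finset.sum_eq_single x]
    · simp
    · intro z _ hz; simp [Ne.symm hz]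
    · simp
  simp_rw [h]
  rw [Finset.sum_comm]
  refine Finset.sum_congr rfl fun i _ => ?_
  rw [Finset.sum_comm]

variable (W : Matrix (c × d) (a × b) ℂ) (A : Matrix a a ℂ) (B : Matrix b b ℂ)

/-- The output on `c`. -/
def outC : Matrix c c ℂ := ptr2 (W * (A ⊗ₖ B) * Wᴴ)

/-- Pull back of an observable on `c`. -/
def pull (Z : Matrix c c ℂ) : Matrix (a × b) (a × b) ℂ := Wᴴ * (Z ⊗ₖ (1 : Matrix d d ℂ)) * W

/-- The dual channel to the first input, with second input `B` fixed. -/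
def dualA (Z : Matrix c c ℂ) : Matrix a a ℂ :=
  ptr2 (((1 : Matrix a a ℂ) ⊗ₖ B) * pull W Z)

/-- The dual channel to the second input, with first input `A` fixed. -/
def dualB (Z : Matrix c c ℂ) : Matrix b b ℂ :=
  ptr1 ((A ⊗ₖ (1 : Matrix b b ℂ)) * pull W Z)

lemma trace_outC_mul (Z : Matrix c c ℂ) :
    (outC W A B * Z).trace = ((A ⊗ₖ B) * pull W Z).trace := by
  rw [Matrix.trace_mul_comm, outC, ← trace_kron_one_mul, pull]
  rw [← Matrix.mul_assoc, ← Matrix.mul_assoc, Matrix.trace_mul_comm]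
  rw [← Matrix.mul_assoc, ← Matrix.mul_assoc, ← Matrix.mul_assoc, Matrix.trace_mul_comm,
    ← Matrix.mul_assoc, ← Matrix.mul_assoc]

lemma trace_outC_dualA (Z : Matrix c c ℂ) :
    (outC W A B * Z).trace = (A * dualA W B Z).trace := by
  rw [trace_outC_mul, dualA, ← trace_kron_one_mul, ← Matrix.mul_assoc,
    ← Matrix.mul_kronecker_mul]
  simp

lemma trace_outC_dualB (Z : Matrix c c ℂ) :
    (outC W A B * Z).trace = (B * dualB W A Z).trace := by
  rw [trace_outC_mul, dualB, ← trace_one_kron_mul, ← Matrix.mul_assoc,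
    ← Matrix.mul_kronecker_mul]
  simp

omit [DecidableEq c] in
lemma pull_add (Z Y : Matrix c c ℂ) : pull W (Z + Y) = pull W Z + pull W Y := by
  simp only [pull, Matrix.add_kronecker, Matrix.mul_add, Matrix.add_mul]

omit [DecidableEq c] in
lemma pull_sub (Z Y : Matrix c c ℂ) : pull W (Z - Y) = pull W Z - pull W Y := by
  have h : (Z - Y) ⊗ₖ (1 : Matrix d d ℂ) = Z ⊗ₖ 1 - Y ⊗ₖ 1 := by
    ext ⟨i, i'⟩ ⟨j, j'⟩; simp [sub_mul]
  simp only [pull, h, Matrix.mul_sub, Matrix.sub_mul]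

omit [DecidableEq c] in
lemma pull_smul (t : ℂ) (Z : Matrix c c ℂ) : pull W (t • Z) = t • pull W Z := by
  simp only [pull, Matrix.smul_kronecker, Matrix.mul_smul, Matrix.smul_mul]

omit [DecidableEq c] in
lemma pull_conjTranspose (Z : Matrix c c ℂ) : pull W Zᴴ = (pull W Z)ᴴ := by
  simp only [pull, Matrix.conjTranspose_mul, Matrix.conjTranspose_conjTranspose,
    Matrix.conjTranspose_kronecker, Matrix.conjTranspose_one, Matrix.mul_assoc]

lemma pull_one (hW : Wᴴ * W = 1) : pull W (1 : Matrix c c ℂ) = 1 := by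
  simp [pull, hW]

omit [DecidableEq c] in
lemma pull_posSemidef {Z : Matrix c c ℂ} (hZ : Z.PosSemidef) : (pull W Z).PosSemidef := by
  have h1 : (Z ⊗ₖ (1 : Matrix d d ℂ)).PosSemidef := hZ.kronecker Matrix.PosSemidef.one
  exact h1.conjTranspose_mul_mul_same W

lemma dualA_add (Z Y : Matrix c c ℂ) : dualA W B (Z + Y) = dualA W B Z + dualA W B Y := by
  simp only [dualA, pull_add, Matrix.mul_add, ptr2_add]

lemma dualA_sub (Z Y : Matrix c c ℂ) : dualA W B (Z - Y) = dualA W B Z - dualA W B Y := by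
  simp only [dualA, pull_sub, Matrix.mul_sub, ptr2_sub]

lemma dualA_smul (t : ℂ) (Z : Matrix c c ℂ) : dualA W B (t • Z) = t • dualA W B Z := by
  simp only [dualA, pull_smul, Matrix.mul_smul, ptr2_smul]

lemma dualB_add (Z Y : Matrix c c ℂ) : dualB W A (Z + Y) = dualB W A Z + dualB W A Y := by
  simp only [dualB, pull_add, Matrix.mul_add, ptr1_add]

lemma dualB_sub (Z Y : Matrix c c ℂ) : dualB W A (Z - Y) = dualB W A Z - dualB W A Y := by
  simp only [dualB, pull_sub, Matrix.mul_sub, ptr1_sub]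

lemma dualB_smul (t : ℂ) (Z : Matrix c c ℂ) : dualB W A (t • Z) = t • dualB W A Z := by
  simp only [dualB, pull_smul, Matrix.mul_smul, ptr1_smul]

/-- The partial trace is cyclic in the traced factor. -/
lemma ptr2_mul_comm (X : Matrix (a × b) (a × b) ℂ) (P : Matrix b b ℂ) :
    ptr2 (((1 : Matrix a a ℂ) ⊗ₖ P) * X) = ptr2 (X * ((1 : Matrix a a ℂ) ⊗ₖ P)) := by
  classical
  ext i j
  simp only [ptr2_apply, Matrix.mul_apply, Fintype.sum_prod_type, kroneckerMap_apply,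
    Matrix.one_apply, ite_mul, one_mul, zero_mul, mul_ite, mul_zero]
  have h1 : ∀ k : b, ∑ x : a, ∑ y : b, (if i = x then P k y * X (x, y) (j, k) else 0)
      = ∑ y, P k y * X (i, y) (j, k) := by
    intro k
    rw [Finset.sum_eq_single i]
    · simp
    · intro z _ hz; simp [Ne.symm hz]
    · simp
  have h2 : ∀ k : b, ∑ x : a, ∑ y : b, (if x = j then X (i, k) (x, y) * P y k else 0)
      = ∑ y, X (i, k) (j, y) * P y k := by
    intro k
    rw [Finset.sum_eq_single j]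
    · simp
    · intro z _ hz; simp [hz]
    · simp
  simp_rw [h1, h2]
  rw [Finset.sum_comm]
  refine Finset.sum_congr rfl fun k _ => Finset.sum_congr rfl fun y _ => ?_
  rw [mul_comm]

lemma ptr1_mul_comm (X : Matrix (a × b) (a × b) ℂ) (P : Matrix a a ℂ) :
    ptr1 ((P ⊗ₖ (1 : Matrix b b ℂ)) * X) = ptr1 (X * (P ⊗ₖ (1 : Matrix b b ℂ))) := by
  classical
  ext i j
  simp only [ptr1_apply, Matrix.mul_apply, Fintype.sum_prod_type, kroneckerMap_apply,
    Matrix.one_apply, mul_ite, ite_mul, mul_one, zero_mul, mul_zero]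
  have h1 : ∀ k : a, ∑ x : a, ∑ y : b, (if i = y then P k x * X (x, y) (k, j) else 0)
      = ∑ x, P k x * X (x, i) (k, j) := by
    intro k
    refine Finset.sum_congr rfl fun x _ => ?_
    simp
  have h2 : ∀ k : a, ∑ x : a, ∑ y : b, (if y = j then X (k, i) (x, y) * P x k else 0)
      = ∑ x, X (k, i) (x, j) * P x k := by
    intro k
    refine Finset.sum_congr rfl fun x _ => ?_
    simp
  simp_rw [h1, h2]
  rw [Finset.sum_comm]
  refine Finset.sum_congr rfl fun k _ => Finset.sum_congr rfl fun y _ => ?_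
  rw [mul_comm]

lemma dualA_conjTranspose (hB : Bᴴ = B) (Z : Matrix c c ℂ) :
    dualA W B Zᴴ = (dualA W B Z)ᴴ := by
  rw [dualA, dualA, ← ptr2_conjTranspose, Matrix.conjTranspose_mul,
    Matrix.conjTranspose_kronecker, hB, Matrix.conjTranspose_one, ptr2_mul_comm,
    pull_conjTranspose]

lemma dualB_conjTranspose (hA : Aᴴ = A) (Z : Matrix c c ℂ) :
    dualB W A Zᴴ = (dualB W A Z)ᴴ := by
  rw [dualB, dualB, ← ptr1_conjTranspose, Matrix.conjTranspose_mul,
    Matrix.conjTranspose_kronecker, hA, Matrix.conjTranspose_one, ptr1_mul_comm,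
    pull_conjTranspose]

lemma dualA_one (hW : Wᴴ * W = 1) (hB : B.trace = 1) :
    dualA W B (1 : Matrix c c ℂ) = 1 := by
  rw [dualA, pull_one W hW, Matrix.mul_one]
  have hB' : ∑ k, B k k = 1 := hB
  ext i j
  by_cases h : i = j
  · subst h; simp [hB']
  · simp [h]

lemma dualB_one (hW : Wᴴ * W = 1) (hA : A.trace = 1) :
    dualB W A (1 : Matrix c c ℂ) = 1 := by
  rw [dualB, pull_one W hW, Matrix.mul_one]
  have hA' : ∑ k, A k k = 1 := hA
  ext i j
  by_cases h : i = j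
  · subst h; simp [hA']
  · simp [h]

lemma outC_trace (hW : Wᴴ * W = 1) (hA : A.trace = 1) (hB : B.trace = 1) :
    (outC W A B).trace = 1 := by
  have h := trace_outC_mul W A B 1
  rw [Matrix.mul_one, pull_one W hW, Matrix.mul_one, Matrix.trace_kronecker, hA, hB,
    mul_one] at h
  exact h

open scoped MatrixOrder Matrix.Norms.L2Operator in
lemma exists_conjTranspose_mul_self {m : Type*} [Fintype m] [DecidableEq m]
    {Q : Matrix m m ℂ} (hQ : Q.PosSemidef) : ∃ R : Matrix m m ℂ, Q = Rᴴ * R := by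
  obtain ⟨R, hR⟩ := CStarAlgebra.nonneg_iff_eq_star_mul_self.mp hQ.nonneg
  exact ⟨R, hR⟩

lemma trace_mul_nonneg {m : Type*} [Fintype m] {P Q : Matrix m m ℂ} (hP : P.PosSemidef)
    (hQ : Q.PosSemidef) : 0 ≤ (P * Q).trace := by
  classical
  obtain ⟨R, hR⟩ := exists_conjTranspose_mul_self hQ
  rw [hR, ← Matrix.mul_assoc, Matrix.trace_mul_comm, ← Matrix.mul_assoc]
  exact (hP.mul_mul_conjTranspose_same R).trace_nonneg

lemma ptr2_posSemidef {X : Matrix (a × b) (a × b) ℂ} (hX : X.PosSemidef) :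
    (ptr2 X).PosSemidef := by
  classical
  have : ptr2 X = ∑ k : b, X.submatrix (fun i => (i, k)) (fun i => (i, k)) := by
    ext i j
    simp [Matrix.sum_apply]
  rw [this]
  exact Matrix.posSemidef_sum _ fun k _ => hX.submatrix _

lemma ptr1_posSemidef {X : Matrix (a × b) (a × b) ℂ} (hX : X.PosSemidef) :
    (ptr1 X).PosSemidef := by
  classical
  have : ptr1 X = ∑ k : a, X.submatrix (fun i => (k, i)) (fun i => (k, i)) := by
    ext i j
    simp [Matrix.sum_apply]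
  rw [this]
  exact Matrix.posSemidef_sum _ fun k _ => hX.submatrix _

lemma outC_posSemidef (hA : A.PosSemidef) (hB : B.PosSemidef) :
    (outC W A B).PosSemidef :=
  ptr2_posSemidef ((hA.kronecker hB).mul_mul_conjTranspose_same W)

/-- `pull (Z^H Z) - (pull Z)^H (pull Z)` is positive semidefinite (Schwarz inequality). -/
lemma pull_schwarz (hW : Wᴴ * W = 1) (Z : Matrix c c ℂ) :
    (pull W (Zᴴ * Z) - (pull W Z)ᴴ * pull W Z).PosSemidef := by
  have hZ : (Zᴴ * Z) ⊗ₖ (1 : Matrix d d ℂ)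
      = (Z ⊗ₖ (1 : Matrix d d ℂ))ᴴ * (Z ⊗ₖ (1 : Matrix d d ℂ)) := by
    rw [Matrix.conjTranspose_kronecker, Matrix.conjTranspose_one, ← Matrix.mul_kronecker_mul,
      Matrix.mul_one]
  set T : Matrix (c × d) (c × d) ℂ := Z ⊗ₖ (1 : Matrix d d ℂ) with hT
  set D : Matrix (c × d) (a × b) ℂ := T * W - W * (Wᴴ * T * W) with hD
  have hDD : pull W (Zᴴ * Z) - (pull W Z)ᴴ * pull W Z = Dᴴ * D := by
    have e1 : pull W (Zᴴ * Z) = Wᴴ * (Tᴴ * T) * W := by rw [pull, hZ]
    have e2 : pull W Z = Wᴴ * T * W := by rw [pull]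
    have e3 : D = T * W - W * (pull W Z) := by rw [hD, e2]
    have e4 : Wᴴ * (W * pull W Z) = pull W Z := by rw [← Matrix.mul_assoc, hW, Matrix.one_mul]
    rw [e3, e1, Matrix.conjTranspose_sub, Matrix.conjTranspose_mul, Matrix.conjTranspose_mul,
      Matrix.sub_mul, Matrix.mul_sub, Matrix.mul_sub]
    have f1 : Wᴴ * Tᴴ * (T * W) = Wᴴ * (Tᴴ * T) * W := by simp only [Matrix.mul_assoc]
    have f2 : Wᴴ * Tᴴ * (W * pull W Z) = (pull W Z)ᴴ * pull W Z := by
      rw [e2]; simp only [Matrix.conjTranspose_mul, Matrix.conjTranspose_conjTranspose,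
        Matrix.mul_assoc]
    have f3 : (pull W Z)ᴴ * Wᴴ * (T * W) = (pull W Z)ᴴ * pull W Z := by
      rw [e2]; simp only [Matrix.conjTranspose_mul, Matrix.conjTranspose_conjTranspose,
        Matrix.mul_assoc]
    have f4 : (pull W Z)ᴴ * Wᴴ * (W * pull W Z) = (pull W Z)ᴴ * pull W Z := by
      rw [Matrix.mul_assoc, e4]
    rw [f1, f2, f3, f4]
    abel
  rw [hDD]
  exact Matrix.posSemidef_conjTranspose_mul_self D

lemma conj_trace {m : Type*} [Fintype m] (X : Matrix m m ℂ) :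
    (starRingEnd ℂ) X.trace = Xᴴ.trace := by
  rw [Matrix.trace_conjTranspose]; rfl

/-- `ip S X Y = Tr (S X^H Y)`. -/
def ip {m : Type*} [Fintype m] (S X Y : Matrix m m ℂ) : ℂ := (S * (Xᴴ * Y)).trace

lemma ip_add_right {m : Type*} [Fintype m] (S X Y Z : Matrix m m ℂ) :
    ip S X (Y + Z) = ip S X Y + ip S X Z := by
  simp [ip, Matrix.mul_add]

lemma ip_sub_right {m : Type*} [Fintype m] (S X Y Z : Matrix m m ℂ) :
    ip S X (Y - Z) = ip S X Y - ip S X Z := by
  simp [ip, Matrix.mul_sub]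

lemma ip_add_left {m : Type*} [Fintype m] (S X Y Z : Matrix m m ℂ) :
    ip S (X + Y) Z = ip S X Z + ip S Y Z := by
  simp [ip, Matrix.mul_add, Matrix.add_mul]

lemma ip_sub_left {m : Type*} [Fintype m] (S X Y Z : Matrix m m ℂ) :
    ip S (X - Y) Z = ip S X Z - ip S Y Z := by
  simp [ip, Matrix.mul_sub, Matrix.sub_mul]

lemma ip_self_nonneg {m : Type*} [Fintype m] {S : Matrix m m ℂ} (hS : S.PosSemidef)
    (X : Matrix m m ℂ) : 0 ≤ ip S X X :=
  trace_mul_nonneg hS (Matrix.posSemidef_conjTranspose_mul_self X)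

lemma ip_conj {m : Type*} [Fintype m] {S : Matrix m m ℂ} (hS : Sᴴ = S) (X Y : Matrix m m ℂ) :
    (starRingEnd ℂ) (ip S X Y) = ip S Y X := by
  rw [ip, ip, conj_trace, Matrix.conjTranspose_mul, Matrix.conjTranspose_mul,
    Matrix.conjTranspose_conjTranspose, hS, Matrix.trace_mul_comm]

/-- The Hoeffding (Bessel) inequality: left form. -/
theorem bessel (hW : Wᴴ * W = 1) (hA : A.PosSemidef) (hB : B.PosSemidef)
    (trA : A.trace = 1) (trB : B.trace = 1) (Z : Matrix c c ℂ) (z : ℂ)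
    (hz : z = (outC W A B * Z).trace) :
    (ip A (dualA W B Z - z • 1) (dualA W B Z - z • 1)).re +
      (ip B (dualB W A Z - z • 1) (dualB W A Z - z • 1)).re ≤
      (ip (outC W A B) Z Z).re - ‖z‖ ^ 2 := by
  set P : Matrix a a ℂ := dualA W B Z - z • 1 with hP
  set Q : Matrix b b ℂ := dualB W A Z - z • 1 with hQ
  set S : Matrix (a × b) (a × b) ℂ := A ⊗ₖ B with hS
  set V : Matrix (a × b) (a × b) ℂ := pull W Z with hV
  have hSp : S.PosSemidef := hA.kronecker hB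
  have trS : S.trace = 1 := by rw [hS, Matrix.trace_kronecker, trA, trB, mul_one]
  have hzA : (A * dualA W B Z).trace = z := by rw [hz, trace_outC_dualA]
  have hzB : (B * dualB W A Z).trace = z := by rw [hz, trace_outC_dualB]
  have hzS : (S * V).trace = z := by rw [hz, trace_outC_mul]
  have hAP : (A * P).trace = 0 := by
    rw [hP, Matrix.mul_sub, Matrix.trace_sub, hzA, Matrix.mul_smul, Matrix.mul_one,
      Matrix.trace_smul, trA]; simp
  have hBQ : (B * Q).trace = 0 := by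
    rw [hQ, Matrix.mul_sub, Matrix.trace_sub, hzB, Matrix.mul_smul, Matrix.mul_one,
      Matrix.trace_smul, trB]; simp
  have hAPH : (A * Pᴴ).trace = 0 := by
    have h := congrArg (starRingEnd ℂ) hAP
    rw [conj_trace, Matrix.conjTranspose_mul, hA.1, Matrix.trace_mul_comm] at h
    simpa using h
  have hBQH : (B * Qᴴ).trace = 0 := by
    have h := congrArg (starRingEnd ℂ) hBQ
    rw [conj_trace, Matrix.conjTranspose_mul, hB.1, Matrix.trace_mul_comm] at h
    simpa using h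
  set X1 : Matrix (a × b) (a × b) ℂ := P ⊗ₖ (1 : Matrix b b ℂ) with hX1
  set X2 : Matrix (a × b) (a × b) ℂ := (1 : Matrix a a ℂ) ⊗ₖ Q with hX2
  set X3 : Matrix (a × b) (a × b) ℂ := z • 1 with hX3
  have X1H : X1ᴴ = Pᴴ ⊗ₖ (1 : Matrix b b ℂ) := by
    rw [hX1, Matrix.conjTranspose_kronecker, Matrix.conjTranspose_one]
  have X2H : X2ᴴ = (1 : Matrix a a ℂ) ⊗ₖ Qᴴ := by
    rw [hX2, Matrix.conjTranspose_kronecker, Matrix.conjTranspose_one]
  have X3H : X3ᴴ = (starRingEnd ℂ z) • 1 := by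
    rw [hX3, Matrix.conjTranspose_smul, Matrix.conjTranspose_one]; rfl
  -- pairings with `V`
  have v1 : ip S X1 V = ip A P P := by
    rw [ip, X1H, ← Matrix.mul_assoc, hS, ← Matrix.mul_kronecker_mul, Matrix.mul_one]
    have h1 : (A * Pᴴ) ⊗ₖ B = ((A * Pᴴ) ⊗ₖ (1 : Matrix b b ℂ)) * ((1 : Matrix a a ℂ) ⊗ₖ B) := by
      rw [← Matrix.mul_kronecker_mul, Matrix.mul_one, Matrix.one_mul]
    rw [h1, Matrix.mul_assoc, trace_kron_one_mul]
    have h2 : ptr2 (((1 : Matrix a a ℂ) ⊗ₖ B) * V) = P + z • 1 := by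
      rw [hP, sub_add_cancel]; rfl
    rw [h2, Matrix.mul_add, Matrix.trace_add, Matrix.mul_smul, Matrix.mul_one,
      Matrix.trace_smul, hAPH, ip, Matrix.mul_assoc]
    simp
  have v2 : ip S X2 V = ip B Q Q := by
    rw [ip, X2H, ← Matrix.mul_assoc, hS, ← Matrix.mul_kronecker_mul, Matrix.mul_one]
    have h1 : A ⊗ₖ (B * Qᴴ) = ((1 : Matrix a a ℂ) ⊗ₖ (B * Qᴴ)) * (A ⊗ₖ (1 : Matrix b b ℂ)) := by
      rw [← Matrix.mul_kronecker_mul, Matrix.mul_one, Matrix.one_mul]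
    rw [h1, Matrix.mul_assoc, trace_one_kron_mul]
    have h2 : ptr1 ((A ⊗ₖ (1 : Matrix b b ℂ)) * V) = Q + z • 1 := by
      rw [hQ, sub_add_cancel]; rfl
    rw [h2, Matrix.mul_add, Matrix.trace_add, Matrix.mul_smul, Matrix.mul_one,
      Matrix.trace_smul, hBQH, ip, Matrix.mul_assoc]
    simp
  have v3 : ip S X3 V = (starRingEnd ℂ z) * z := by
    rw [ip, X3H, Matrix.smul_mul, Matrix.one_mul, Matrix.mul_smul, Matrix.trace_smul, hzS]
    rfl
  -- pairings among themselves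
  have p11 : ip S X1 X1 = ip A P P := by
    rw [ip, X1H, hX1, ← Matrix.mul_kronecker_mul, hS, ← Matrix.mul_kronecker_mul,
      Matrix.trace_kronecker, Matrix.mul_one, Matrix.mul_one, trB, mul_one, ip]
  have p22 : ip S X2 X2 = ip B Q Q := by
    rw [ip, X2H, hX2, ← Matrix.mul_kronecker_mul, hS, ← Matrix.mul_kronecker_mul,
      Matrix.trace_kronecker, Matrix.mul_one, Matrix.mul_one, trA, one_mul, ip]
  have p33 : ip S X3 X3 = (starRingEnd ℂ z) * z := by
    rw [ip, X3H, hX3, Matrix.smul_mul, Matrix.one_mul, Matrix.mul_smul, Matrix.mul_smul,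
      Matrix.mul_one, Matrix.trace_smul, Matrix.trace_smul, trS]
    simp
  have p12 : ip S X1 X2 = 0 := by
    rw [ip, X1H, hX2, ← Matrix.mul_kronecker_mul, hS, ← Matrix.mul_kronecker_mul,
      Matrix.trace_kronecker, Matrix.mul_one, hAPH, zero_mul]
  have p13 : ip S X1 X3 = 0 := by
    rw [ip, X1H, hX3, Matrix.mul_smul, Matrix.mul_one, Matrix.mul_smul, Matrix.trace_smul, hS,
      ← Matrix.mul_kronecker_mul, Matrix.trace_kronecker, hAPH, zero_mul, smul_zero]
  have p23 : ip S X2 X3 = 0 := by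
    rw [ip, X2H, hX3, Matrix.mul_smul, Matrix.mul_one, Matrix.mul_smul, Matrix.trace_smul, hS,
      ← Matrix.mul_kronecker_mul, Matrix.trace_kronecker, hBQH, mul_zero, smul_zero]
  have hSh : Sᴴ = S := hSp.1
  have p21 : ip S X2 X1 = 0 := by rw [← ip_conj hSh, p12, map_zero]
  have p31 : ip S X3 X1 = 0 := by rw [← ip_conj hSh, p13, map_zero]
  have p32 : ip S X3 X2 = 0 := by rw [← ip_conj hSh, p23, map_zero]
  set X := X1 + X2 + X3 with hX
  have hXV : ip S X V = ip A P P + ip B Q Q + (starRingEnd ℂ z) * z := by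
    rw [hX, ip_add_left, ip_add_left, v1, v2, v3]
  have hXX : ip S X X = ip A P P + ip B Q Q + (starRingEnd ℂ z) * z := by
    rw [hX]
    simp only [ip_add_left, ip_add_right, p11, p22, p33, p12, p13, p23, p21, p31, p32]
    ring
  have hVX : (ip S V X).re = (ip S X V).re := by
    rw [← ip_conj hSh X V, Complex.conj_re]
  have key : 0 ≤ (ip S (V - X) (V - X)).re := by
    have := ip_self_nonneg hSp (V - X)
    exact (Complex.le_def.1 this).1
  rw [ip_sub_left, ip_sub_right, ip_sub_right, Complex.sub_re, Complex.sub_re, Complex.sub_re,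
    hVX, hXX, hXV] at key
  have hVV : (ip S V V).re ≤ (ip (outC W A B) Z Z).re := by
    have h1 : 0 ≤ (S * (pull W (Zᴴ * Z) - (pull W Z)ᴴ * pull W Z)).trace :=
      trace_mul_nonneg hSp (pull_schwarz W hW Z)
    have h2 := (Complex.le_def.1 h1).1
    rw [Matrix.mul_sub, Matrix.trace_sub, ← trace_outC_mul, Complex.sub_re] at h2
    rw [ip, ip]
    simp only [Complex.zero_re] at h2
    linarith
  have hzz : ((starRingEnd ℂ z) * z).re = ‖z‖ ^ 2 := by
    rw [mul_comm, Complex.mul_conj, Complex.ofReal_re, Complex.normSq_eq_norm_sq]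
  rw [Complex.add_re, Complex.add_re, hzz] at key
  linarith

/-- The Hoeffding (Bessel) inequality: right form. -/
theorem bessel' (hW : Wᴴ * W = 1) (hA : A.PosSemidef) (hB : B.PosSemidef)
    (trA : A.trace = 1) (trB : B.trace = 1) (Z : Matrix c c ℂ) (z : ℂ)
    (hz : z = (outC W A B * Z).trace) :
    (ip A (dualA W B Z - z • 1)ᴴ (dualA W B Z - z • 1)ᴴ).re +
      (ip B (dualB W A Z - z • 1)ᴴ (dualB W A Z - z • 1)ᴴ).re ≤
      (ip (outC W A B) Zᴴ Zᴴ).re - ‖z‖ ^ 2 := by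
  have hC : (outC W A B)ᴴ = outC W A B := (outC_posSemidef W A B hA hB).1
  have hz' : (starRingEnd ℂ) z = (outC W A B * Zᴴ).trace := by
    rw [hz, conj_trace, Matrix.conjTranspose_mul, hC, Matrix.trace_mul_comm]
  have h := bessel W A B hW hA hB trA trB Zᴴ ((starRingEnd ℂ) z) hz'
  have h1 : (dualA W B Z - z • 1)ᴴ = dualA W B Zᴴ - ((starRingEnd ℂ) z) • 1 := by
    rw [Matrix.conjTranspose_sub, ← dualA_conjTranspose W B hB.1, Matrix.conjTranspose_smul,
      Matrix.conjTranspose_one]; rfl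
  have h2 : (dualB W A Z - z • 1)ᴴ = dualB W A Zᴴ - ((starRingEnd ℂ) z) • 1 := by
    rw [Matrix.conjTranspose_sub, ← dualB_conjTranspose W A hA.1, Matrix.conjTranspose_smul,
      Matrix.conjTranspose_one]; rfl
  rw [h1, h2]
  simpa using h

lemma ip_mono {m : Type*} [Fintype m] {S T : Matrix m m ℂ} (h : (T - S).PosSemidef)
    (X : Matrix m m ℂ) : (ip S X X).re ≤ (ip T X X).re := by
  have := ip_self_nonneg h X
  have h1 := (Complex.le_def.1 this).1
  simp only [ip, Matrix.sub_mul, Matrix.trace_sub, Complex.sub_re, Complex.zero_re] at h1 ⊢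
  linarith

/-- Bessel inequality with any `T` above the output. -/
theorem bessel_mono (hW : Wᴴ * W = 1) (hA : A.PosSemidef) (hB : B.PosSemidef)
    (trA : A.trace = 1) (trB : B.trace = 1) {T : Matrix c c ℂ}
    (hT : (T - outC W A B).PosSemidef) (Z : Matrix c c ℂ) (z : ℂ)
    (hz : z = (outC W A B * Z).trace) :
    (ip A (dualA W B Z - z • 1) (dualA W B Z - z • 1)).re +
      (ip B (dualB W A Z - z • 1) (dualB W A Z - z • 1)).re ≤
      (ip T Z Z).re - ‖z‖ ^ 2 := by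
  have h1 := bessel W A B hW hA hB trA trB Z z hz
  have h2 := ip_mono hT Z
  linarith

theorem bessel_mono' (hW : Wᴴ * W = 1) (hA : A.PosSemidef) (hB : B.PosSemidef)
    (trA : A.trace = 1) (trB : B.trace = 1) {T : Matrix c c ℂ}
    (hT : (T - outC W A B).PosSemidef) (Z : Matrix c c ℂ) (z : ℂ)
    (hz : z = (outC W A B * Z).trace) :
    (ip A (dualA W B Z - z • 1)ᴴ (dualA W B Z - z • 1)ᴴ).re +
      (ip B (dualB W A Z - z • 1)ᴴ (dualB W A Z - z • 1)ᴴ).re ≤
      (ip T Zᴴ Zᴴ).re - ‖z‖ ^ 2 := by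
  have h1 := bessel' W A B hW hA hB trA trB Z z hz
  have h2 := ip_mono hT Zᴴ
  linarith

/-! ### Positivity, norms, Schwarz -/

lemma dualA_eq_of_factor {R : Matrix b b ℂ} (hR : B = Rᴴ * R) (Z : Matrix c c ℂ) :
    dualA W B Z = ptr2 (((1 : Matrix a a ℂ) ⊗ₖ R) * pull W Z * ((1 : Matrix a a ℂ) ⊗ₖ R)ᴴ) := by
  have h1 : (1 : Matrix a a ℂ) ⊗ₖ B = ((1 : Matrix a a ℂ) ⊗ₖ Rᴴ) * ((1 : Matrix a a ℂ) ⊗ₖ R) := by
    rw [← Matrix.mul_kronecker_mul, Matrix.mul_one, ← hR]
  have h2 : ((1 : Matrix a a ℂ) ⊗ₖ R)ᴴ = (1 : Matrix a a ℂ) ⊗ₖ Rᴴ := by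
    rw [Matrix.conjTranspose_kronecker, Matrix.conjTranspose_one]
  rw [dualA, h1, Matrix.mul_assoc, ptr2_mul_comm, h2]

lemma dualB_eq_of_factor {R : Matrix a a ℂ} (hR : A = Rᴴ * R) (Z : Matrix c c ℂ) :
    dualB W A Z = ptr1 ((R ⊗ₖ (1 : Matrix b b ℂ)) * pull W Z * (R ⊗ₖ (1 : Matrix b b ℂ))ᴴ) := by
  have h1 : A ⊗ₖ (1 : Matrix b b ℂ) = (Rᴴ ⊗ₖ (1 : Matrix b b ℂ)) * (R ⊗ₖ (1 : Matrix b b ℂ)) := by
    rw [← Matrix.mul_kronecker_mul, Matrix.mul_one, ← hR]
  have h2 : (R ⊗ₖ (1 : Matrix b b ℂ))ᴴ = Rᴴ ⊗ₖ (1 : Matrix b b ℂ) := by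
    rw [Matrix.conjTranspose_kronecker, Matrix.conjTranspose_one]
  rw [dualB, h1, Matrix.mul_assoc, ptr1_mul_comm, h2]

lemma dualA_posSemidef (hB : B.PosSemidef) {Z : Matrix c c ℂ} (hZ : Z.PosSemidef) :
    (dualA W B Z).PosSemidef := by
  obtain ⟨R, hR⟩ := exists_conjTranspose_mul_self hB
  rw [dualA_eq_of_factor W B hR]
  exact ptr2_posSemidef ((pull_posSemidef W hZ).mul_mul_conjTranspose_same _)

lemma dualB_posSemidef (hA : A.PosSemidef) {Z : Matrix c c ℂ} (hZ : Z.PosSemidef) :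
    (dualB W A Z).PosSemidef := by
  obtain ⟨R, hR⟩ := exists_conjTranspose_mul_self hA
  rw [dualB_eq_of_factor W A hR]
  exact ptr1_posSemidef ((pull_posSemidef W hZ).mul_mul_conjTranspose_same _)

/-- Monotonicity. -/
lemma dualA_mono (hB : B.PosSemidef) {Z Y : Matrix c c ℂ} (h : (Y - Z).PosSemidef) :
    (dualA W B Y - dualA W B Z).PosSemidef := by
  rw [← dualA_sub]; exact dualA_posSemidef W B hB h

lemma dualB_mono (hA : A.PosSemidef) {Z Y : Matrix c c ℂ} (h : (Y - Z).PosSemidef) :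
    (dualB W A Y - dualB W A Z).PosSemidef := by
  rw [← dualB_sub]; exact dualB_posSemidef W A hA h

/-- Schwarz inequality for the dual channel. -/
theorem dualA_schwarz (hW : Wᴴ * W = 1) (hB : B.PosSemidef) (trB : B.trace = 1)
    (Z : Matrix c c ℂ) :
    (dualA W B (Zᴴ * Z) - (dualA W B Z)ᴴ * dualA W B Z).PosSemidef := by
  set E := dualA W B Z with hE
  obtain ⟨R, hR⟩ := exists_conjTranspose_mul_self hB
  set K : Matrix (a × b) (a × b) ℂ := (1 : Matrix a a ℂ) ⊗ₖ R with hK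
  set V := pull W Z with hV
  set D : Matrix (a × b) (a × b) ℂ := (V - E ⊗ₖ (1 : Matrix b b ℂ)) with hD
  have hKK : Kᴴ * K = (1 : Matrix a a ℂ) ⊗ₖ B := by
    rw [hK, Matrix.conjTranspose_kronecker, Matrix.conjTranspose_one, ← Matrix.mul_kronecker_mul,
      Matrix.mul_one, ← hR]
  have h0 : (ptr2 (K * (Dᴴ * D) * Kᴴ)).PosSemidef :=
    ptr2_posSemidef ((Matrix.posSemidef_conjTranspose_mul_self D).mul_mul_conjTranspose_same K)
  have h1 : (ptr2 (K * (pull W (Zᴴ * Z) - Vᴴ * V) * Kᴴ)).PosSemidef :=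
    ptr2_posSemidef ((pull_schwarz W hW Z).mul_mul_conjTranspose_same K)
  have cyc : ∀ X : Matrix (a × b) (a × b) ℂ,
      ptr2 (K * X * Kᴴ) = ptr2 (((1 : Matrix a a ℂ) ⊗ₖ B) * X) := by
    intro X
    have h2 : Kᴴ = (1 : Matrix a a ℂ) ⊗ₖ Rᴴ := by
      rw [hK, Matrix.conjTranspose_kronecker, Matrix.conjTranspose_one]
    rw [h2, ← ptr2_mul_comm, ← Matrix.mul_assoc, ← h2, hKK]
  rw [cyc] at h0 h1
  have tensA : ∀ (P : Matrix a a ℂ) (X : Matrix (a × b) (a × b) ℂ),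
      ptr2 ((P ⊗ₖ (1 : Matrix b b ℂ)) * X) = P * ptr2 X := by
    intro P X
    ext i j
    simp only [ptr2_apply, Matrix.mul_apply, Fintype.sum_prod_type, kroneckerMap_apply,
      Matrix.one_apply, mul_ite, ite_mul, mul_one, zero_mul, mul_zero, Finset.sum_ite_eq,
      Finset.mem_univ, if_true, Finset.mul_sum]
    rw [Finset.sum_comm]
  have tensA' : ∀ (P : Matrix a a ℂ) (X : Matrix (a × b) (a × b) ℂ),
      ptr2 (X * (P ⊗ₖ (1 : Matrix b b ℂ))) = ptr2 X * P := by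
    intro P X
    have := congrArg (fun M => Mᴴ) (tensA Pᴴ Xᴴ)
    simp only [← ptr2_conjTranspose, Matrix.conjTranspose_mul, Matrix.conjTranspose_kronecker,
      Matrix.conjTranspose_conjTranspose, Matrix.conjTranspose_one] at this
    exact this
  have comm1 : ∀ (P : Matrix a a ℂ), ((1 : Matrix a a ℂ) ⊗ₖ B) * (P ⊗ₖ (1 : Matrix b b ℂ))
      = (P ⊗ₖ (1 : Matrix b b ℂ)) * ((1 : Matrix a a ℂ) ⊗ₖ B) := by
    intro P
    rw [← Matrix.mul_kronecker_mul, ← Matrix.mul_kronecker_mul]; simp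
  have hVE : ptr2 (((1 : Matrix a a ℂ) ⊗ₖ B) * V) = E := rfl
  have hVE' : ptr2 (((1 : Matrix a a ℂ) ⊗ₖ B) * Vᴴ) = Eᴴ := by
    rw [hE, ← dualA_conjTranspose W B hB.1, dualA, pull_conjTranspose]
  have h11 : ptr2 ((1 : Matrix a a ℂ) ⊗ₖ B) = 1 := by
    have := dualA_one W B hW trB
    rwa [dualA, pull_one W hW, Matrix.mul_one] at this
  have hDD : ptr2 (((1 : Matrix a a ℂ) ⊗ₖ B) * (Dᴴ * D))
      = ptr2 (((1 : Matrix a a ℂ) ⊗ₖ B) * (Vᴴ * V)) - Eᴴ * E := by
    have e0 : Dᴴ = Vᴴ - Eᴴ ⊗ₖ (1 : Matrix b b ℂ) := by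
      rw [hD, Matrix.conjTranspose_sub, Matrix.conjTranspose_kronecker, Matrix.conjTranspose_one]
    rw [e0, hD, Matrix.sub_mul, Matrix.mul_sub, Matrix.mul_sub, Matrix.mul_sub, Matrix.mul_sub,
      Matrix.mul_sub, ptr2_sub, ptr2_sub, ptr2_sub]
    have t1 : ptr2 (((1 : Matrix a a ℂ) ⊗ₖ B) * (Vᴴ * (E ⊗ₖ (1 : Matrix b b ℂ)))) = Eᴴ * E := by
      rw [← Matrix.mul_assoc, tensA', hVE']
    have t2 : ptr2 (((1 : Matrix a a ℂ) ⊗ₖ B) * ((Eᴴ ⊗ₖ (1 : Matrix b b ℂ)) * V)) = Eᴴ * E := by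
      rw [← Matrix.mul_assoc, comm1, Matrix.mul_assoc, tensA, hVE]
    have t3 : ptr2 (((1 : Matrix a a ℂ) ⊗ₖ B) *
        ((Eᴴ ⊗ₖ (1 : Matrix b b ℂ)) * (E ⊗ₖ (1 : Matrix b b ℂ)))) = Eᴴ * E := by
      rw [← Matrix.mul_kronecker_mul, Matrix.mul_one, comm1, tensA, h11, Matrix.mul_one]
    rw [t1, t2, t3]
    abel
  have h2 : dualA W B (Zᴴ * Z) = ptr2 (((1 : Matrix a a ℂ) ⊗ₖ B) * pull W (Zᴴ * Z)) := rfl
  have h3 := h0.add h1
  rw [hDD, Matrix.mul_sub, ptr2_sub, ← h2] at h3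
  have h4 : ptr2 (((1 : Matrix a a ℂ) ⊗ₖ B) * (Vᴴ * V)) - Eᴴ * E +
      (dualA W B (Zᴴ * Z) - ptr2 (((1 : Matrix a a ℂ) ⊗ₖ B) * (Vᴴ * V)))
      = dualA W B (Zᴴ * Z) - Eᴴ * E := by abel
  rwa [h4] at h3

end Vale.P369.H587
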