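import Vale.Agent.P369.FD.Stmts
import Vale.Agent.P369.H587.Dp

/-!
P369, track FD, package DP: data processing in the two GNS forms, duality, positivity, norms.
-/

set_option linter.all false

namespace Vale.Agent.P369.FD

open Matrix
open scoped Kronecker ComplexOrder

noncomputable section

variable {ι ι' κ ε : Type} [Fintype ι] [DecidableEq ι] [Fintype ι'] [DecidableEq ι']
  [Fintype κ] [DecidableEq κ] [Fintype ε] [DecidableEq ε]

theorem ptrR_eq (T : Matrix (κ × ε) (κ × ε) ℂ) : ptrR T = Vale.P369.H587.ptr2 T := rfl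

theorem ptrL_eq (T : Matrix (κ × ε) (κ × ε) ℂ) : ptrL T = Vale.P369.H587.ptr1 T := rfl

theorem outp_eq (W : Matrix (κ × ε) (ι × ι') ℂ) (A : Matrix ι ι ℂ) (B : Matrix ι' ι' ℂ) :
    outp W A B = Vale.P369.H587.outC W A B := rfl

theorem EA_eq (W : Matrix (κ × ε) (ι × ι') ℂ) (B : Matrix ι' ι' ℂ) (Z : Matrix κ κ ℂ) :
    EA W B Z = Vale.P369.H587.dualA W B Z := rfl

theorem EB_eq (W : Matrix (κ × ε) (ι × ι') ℂ) (A : Matrix ι ι ℂ) (Z : Matrix κ κ ℂ) :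
    EB W A Z = Vale.P369.H587.dualB W A Z := rfl

/-- Package DP. -/
theorem thm_DP : S_DP := by
  intro ι ι' κ ε _ _ _ _ _ _ _ _ W hW A B hA hB Z
  have h1 := Vale.P369.H587.bessel W A B hW hA.1 hB.1 hA.2 hB.2 Z _ rfl
  have h2 := Vale.P369.H587.bessel' W A B hW hA.1 hB.1 hA.2 hB.2 Z _ rfl
  have hn : 0 ≤ ‖(Vale.P369.H587.outC W A B * Z).trace‖ ^ 2 := by positivity
  constructor
  · have h3 := h1.trans (sub_le_self _ hn)
    exact h3
  · have h3 := h2.trans (sub_le_self _ hn)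
    simp only [Vale.P369.H587.ip, Matrix.conjTranspose_conjTranspose] at h3
    exact h3

/-- The refined form with the square of the mean. -/
theorem dp_left {W : Matrix (κ × ε) (ι × ι') ℂ} (hW : Wᴴ * W = 1) {A : Matrix ι ι ℂ}
    {B : Matrix ι' ι' ℂ} (hA : IsDM A) (hB : IsDM B) (Z : Matrix κ κ ℂ) :
    (A * ((EAc W A B Z)ᴴ * EAc W A B Z)).trace.re +
      (B * ((EBc W A B Z)ᴴ * EBc W A B Z)).trace.re ≤
        (outp W A B * (Zᴴ * Z)).trace.re - ‖(outp W A B * Z).trace‖ ^ 2 :=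
  Vale.P369.H587.bessel W A B hW hA.1 hB.1 hA.2 hB.2 Z _ rfl

theorem dp_right {W : Matrix (κ × ε) (ι × ι') ℂ} (hW : Wᴴ * W = 1) {A : Matrix ι ι ℂ}
    {B : Matrix ι' ι' ℂ} (hA : IsDM A) (hB : IsDM B) (Z : Matrix κ κ ℂ) :
    (A * (EAc W A B Z * (EAc W A B Z)ᴴ)).trace.re +
      (B * (EBc W A B Z * (EBc W A B Z)ᴴ)).trace.re ≤
        (outp W A B * (Z * Zᴴ)).trace.re - ‖(outp W A B * Z).trace‖ ^ 2 := by
  have h3 := Vale.P369.H587.bessel' W A B hW hA.1 hB.1 hA.2 hB.2 Z _ rfl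
  simp only [Vale.P369.H587.ip, Matrix.conjTranspose_conjTranspose] at h3
  exact h3

/-- Duality, for arbitrary matrices. -/
theorem trace_outp_mul_eq_EA (W : Matrix (κ × ε) (ι × ι') ℂ) (X : Matrix ι ι ℂ)
    (B : Matrix ι' ι' ℂ) (Z : Matrix κ κ ℂ) :
    (outp W X B * Z).trace = (X * EA W B Z).trace :=
  Vale.P369.H587.trace_outC_dualA W X B Z

theorem trace_outp_mul_eq_EB (W : Matrix (κ × ε) (ι × ι') ℂ) (A : Matrix ι ι ℂ)
    (Y : Matrix ι' ι' ℂ) (Z : Matrix κ κ ℂ) :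
    (outp W A Y * Z).trace = (Y * EB W A Z).trace :=
  Vale.P369.H587.trace_outC_dualB W A Y Z

theorem trace_outp {W : Matrix (κ × ε) (ι × ι') ℂ} (hW : Wᴴ * W = 1) (X : Matrix ι ι ℂ)
    (Y : Matrix ι' ι' ℂ) : (outp W X Y).trace = X.trace * Y.trace := by
  have h := Vale.P369.H587.trace_outC_mul W X Y 1
  rw [Matrix.mul_one, Vale.P369.H587.pull_one W hW, Matrix.mul_one, Matrix.trace_kronecker] at h
  exact h

theorem outp_posSemidef (W : Matrix (κ × ε) (ι × ι') ℂ) {A : Matrix ι ι ℂ}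
    {B : Matrix ι' ι' ℂ} (hA : A.PosSemidef) (hB : B.PosSemidef) : (outp W A B).PosSemidef :=
  Vale.P369.H587.outC_posSemidef W A B hA hB

theorem isDM_outp {W : Matrix (κ × ε) (ι × ι') ℂ} (hW : Wᴴ * W = 1) {A : Matrix ι ι ℂ}
    {B : Matrix ι' ι' ℂ} (hA : IsDM A) (hB : IsDM B) : IsDM (outp W A B) :=
  ⟨outp_posSemidef W hA.1 hB.1, by rw [trace_outp hW, hA.2, hB.2, mul_one]⟩

theorem outp_add_left (W : Matrix (κ × ε) (ι × ι') ℂ) (X Y : Matrix ι ι ℂ)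
    (B : Matrix ι' ι' ℂ) : outp W (X + Y) B = outp W X B + outp W Y B := by
  have h : (X + Y) ⊗ₖ B = X ⊗ₖ B + Y ⊗ₖ B := Matrix.add_kronecker X Y B
  simp only [outp_eq, Vale.P369.H587.outC, h, Matrix.mul_add, Matrix.add_mul,
    Vale.P369.H587.ptr2_add]

theorem outp_add_right (W : Matrix (κ × ε) (ι × ι') ℂ) (A : Matrix ι ι ℂ)
    (X Y : Matrix ι' ι' ℂ) : outp W A (X + Y) = outp W A X + outp W A Y := by
  have h : A ⊗ₖ (X + Y) = A ⊗ₖ X + A ⊗ₖ Y := Matrix.kronecker_add A X Y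
  simp only [outp_eq, Vale.P369.H587.outC, h, Matrix.mul_add, Matrix.add_mul,
    Vale.P369.H587.ptr2_add]

theorem outp_smul_left (W : Matrix (κ × ε) (ι × ι') ℂ) (r : ℂ) (X : Matrix ι ι ℂ)
    (B : Matrix ι' ι' ℂ) : outp W (r • X) B = r • outp W X B := by
  simp only [outp_eq, Vale.P369.H587.outC, Matrix.smul_kronecker, Matrix.mul_smul,
    Matrix.smul_mul, Vale.P369.H587.ptr2_smul]

theorem outp_smul_right (W : Matrix (κ × ε) (ι × ι') ℂ) (r : ℂ) (A : Matrix ι ι ℂ)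
    (Y : Matrix ι' ι' ℂ) : outp W A (r • Y) = r • outp W A Y := by
  simp only [outp_eq, Vale.P369.H587.outC, Matrix.kronecker_smul, Matrix.mul_smul,
    Matrix.smul_mul, Vale.P369.H587.ptr2_smul]

theorem outp_sub_left (W : Matrix (κ × ε) (ι × ι') ℂ) (X Y : Matrix ι ι ℂ)
    (B : Matrix ι' ι' ℂ) : outp W (X - Y) B = outp W X B - outp W Y B := by
  rw [eq_sub_iff_add_eq, ← outp_add_left, sub_add_cancel]

theorem outp_sub_right (W : Matrix (κ × ε) (ι × ι') ℂ) (A : Matrix ι ι ℂ)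
    (X Y : Matrix ι' ι' ℂ) : outp W A (X - Y) = outp W A X - outp W A Y := by
  rw [eq_sub_iff_add_eq, ← outp_add_right, sub_add_cancel]

theorem outp_conjTranspose (W : Matrix (κ × ε) (ι × ι') ℂ) (A : Matrix ι ι ℂ)
    (B : Matrix ι' ι' ℂ) : outp W Aᴴ Bᴴ = (outp W A B)ᴴ := by
  simp only [outp_eq, Vale.P369.H587.outC, ← Vale.P369.H587.ptr2_conjTranspose,
    Matrix.conjTranspose_mul, Matrix.conjTranspose_kronecker,
    Matrix.conjTranspose_conjTranspose, Matrix.mul_assoc]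

theorem EA_one {W : Matrix (κ × ε) (ι × ι') ℂ} (hW : Wᴴ * W = 1) {B : Matrix ι' ι' ℂ}
    (hB : B.trace = 1) : EA W B 1 = 1 := Vale.P369.H587.dualA_one W B hW hB

theorem EB_one {W : Matrix (κ × ε) (ι × ι') ℂ} (hW : Wᴴ * W = 1) {A : Matrix ι ι ℂ}
    (hA : A.trace = 1) : EB W A 1 = 1 := Vale.P369.H587.dualB_one W A hW hA

theorem EA_add (W : Matrix (κ × ε) (ι × ι') ℂ) (B : Matrix ι' ι' ℂ) (Z Y : Matrix κ κ ℂ) :
    EA W B (Z + Y) = EA W B Z + EA W B Y := Vale.P369.H587.dualA_add W B Z Y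

theorem EB_add (W : Matrix (κ × ε) (ι × ι') ℂ) (A : Matrix ι ι ℂ) (Z Y : Matrix κ κ ℂ) :
    EB W A (Z + Y) = EB W A Z + EB W A Y := Vale.P369.H587.dualB_add W A Z Y

theorem EA_sub (W : Matrix (κ × ε) (ι × ι') ℂ) (B : Matrix ι' ι' ℂ) (Z Y : Matrix κ κ ℂ) :
    EA W B (Z - Y) = EA W B Z - EA W B Y := Vale.P369.H587.dualA_sub W B Z Y

theorem EB_sub (W : Matrix (κ × ε) (ι × ι') ℂ) (A : Matrix ι ι ℂ) (Z Y : Matrix κ κ ℂ) :
    EB W A (Z - Y) = EB W A Z - EB W A Y := Vale.P369.H587.dualB_sub W A Z Y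

theorem EA_smul (W : Matrix (κ × ε) (ι × ι') ℂ) (B : Matrix ι' ι' ℂ) (r : ℂ)
    (Z : Matrix κ κ ℂ) : EA W B (r • Z) = r • EA W B Z := Vale.P369.H587.dualA_smul W B r Z

theorem EB_smul (W : Matrix (κ × ε) (ι × ι') ℂ) (A : Matrix ι ι ℂ) (r : ℂ)
    (Z : Matrix κ κ ℂ) : EB W A (r • Z) = r • EB W A Z := Vale.P369.H587.dualB_smul W A r Z

theorem EA_conjTranspose (W : Matrix (κ × ε) (ι × ι') ℂ) {B : Matrix ι' ι' ℂ}
    (hB : B.IsHermitian) (Z : Matrix κ κ ℂ) : EA W B Zᴴ = (EA W B Z)ᴴ :=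
  Vale.P369.H587.dualA_conjTranspose W B hB Z

theorem EB_conjTranspose (W : Matrix (κ × ε) (ι × ι') ℂ) {A : Matrix ι ι ℂ}
    (hA : A.IsHermitian) (Z : Matrix κ κ ℂ) : EB W A Zᴴ = (EB W A Z)ᴴ :=
  Vale.P369.H587.dualB_conjTranspose W A hA Z

theorem EA_posSemidef (W : Matrix (κ × ε) (ι × ι') ℂ) {B : Matrix ι' ι' ℂ} (hB : B.PosSemidef)
    {Z : Matrix κ κ ℂ} (hZ : Z.PosSemidef) : (EA W B Z).PosSemidef :=
  Vale.P369.H587.dualA_posSemidef W B hB hZ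

theorem EB_posSemidef (W : Matrix (κ × ε) (ι × ι') ℂ) {A : Matrix ι ι ℂ} (hA : A.PosSemidef)
    {Z : Matrix κ κ ℂ} (hZ : Z.PosSemidef) : (EB W A Z).PosSemidef :=
  Vale.P369.H587.dualB_posSemidef W A hA hZ

/-- Schwarz inequality for the dual channel. -/
theorem EA_schwarz {W : Matrix (κ × ε) (ι × ι') ℂ} (hW : Wᴴ * W = 1) {B : Matrix ι' ι' ℂ}
    (hB : IsDM B) (Z : Matrix κ κ ℂ) :
    (EA W B (Zᴴ * Z) - (EA W B Z)ᴴ * EA W B Z).PosSemidef :=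
  Vale.P369.H587.dualA_schwarz W B hW hB.1 hB.2 Z

/-! ### exchange of the two inputs -/

theorem sw_sw (W : Matrix (κ × ε) (ι × ι') ℂ) : sw (sw W) = W := by
  ext x y
  rcases y with ⟨y1, y2⟩
  rfl

theorem sw_mul_kron (W : Matrix (κ × ε) (ι × ι') ℂ) (A : Matrix ι ι ℂ) (B : Matrix ι' ι' ℂ) :
    sw W * (B ⊗ₖ A) = sw (W * (A ⊗ₖ B)) := by
  ext x y
  simp only [sw, Matrix.mul_apply, Matrix.submatrix_apply, id_eq, Fintype.sum_prod_type,
    kroneckerMap_apply, Prod.swap, Prod.fst_swap, Prod.snd_swap]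
  rw [Finset.sum_comm]
  refine Finset.sum_congr rfl fun i _ => Finset.sum_congr rfl fun j _ => ?_
  ring

theorem mul_sw_conjTranspose (V W : Matrix (κ × ε) (ι × ι') ℂ) :
    sw V * (sw W)ᴴ = V * Wᴴ := by
  ext x y
  simp only [sw, Matrix.mul_apply, Matrix.submatrix_apply, id_eq, Fintype.sum_prod_type,
    Matrix.conjTranspose_apply, Prod.swap, Prod.fst_swap, Prod.snd_swap]
  rw [Finset.sum_comm]

theorem outp_sw (W : Matrix (κ × ε) (ι × ι') ℂ) (A : Matrix ι ι ℂ) (B : Matrix ι' ι' ℂ) :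
    outp (sw W) B A = outp W A B := by
  unfold outp
  rw [sw_mul_kron, mul_sw_conjTranspose]

theorem sw_iso {W : Matrix (κ × ε) (ι × ι') ℂ} (hW : Wᴴ * W = 1) : (sw W)ᴴ * sw W = 1 := by
  have : (sw W)ᴴ * sw W = (Wᴴ * W).submatrix Prod.swap Prod.swap := by
    ext x y
    simp [sw, Matrix.mul_apply]
  rw [this, hW]
  ext x y
  rcases x with ⟨x1, x2⟩
  rcases y with ⟨y1, y2⟩
  simp [Matrix.one_apply, and_comm]

/-- `EA (sw W) A = EB W A` -/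
theorem EA_sw (W : Matrix (κ × ε) (ι × ι') ℂ) (A : Matrix ι ι ℂ) (Z : Matrix κ κ ℂ) :
    EA (sw W) A Z = EB W A Z := by
  have hall : ∀ X : Matrix ι' ι' ℂ, (X * EA (sw W) A Z).trace = (X * EB W A Z).trace := by
    intro X
    rw [← trace_outp_mul_eq_EA, ← trace_outp_mul_eq_EB, outp_sw]
  exact Matrix.ext_iff_trace_mul_left.2 hall

theorem EB_sw (W : Matrix (κ × ε) (ι × ι') ℂ) (B : Matrix ι' ι' ℂ) (Z : Matrix κ κ ℂ) :
    EB (sw W) B Z = EA W B Z := by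
  rw [← EA_sw, sw_sw]

theorem EAc_sw (W : Matrix (κ × ε) (ι × ι') ℂ) (A : Matrix ι ι ℂ) (B : Matrix ι' ι' ℂ)
    (Z : Matrix κ κ ℂ) : EAc (sw W) B A Z = EBc W A B Z := by
  unfold EAc EBc
  rw [EA_sw, outp_sw]

theorem EBc_sw (W : Matrix (κ × ε) (ι × ι') ℂ) (A : Matrix ι ι ℂ) (B : Matrix ι' ι' ℂ)
    (Z : Matrix κ κ ℂ) : EBc (sw W) B A Z = EAc W A B Z := by
  unfold EAc EBc
  rw [EB_sw, outp_sw]

theorem EB_schwarz {W : Matrix (κ × ε) (ι × ι') ℂ} (hW : Wᴴ * W = 1) {A : Matrix ι ι ℂ}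
    (hA : IsDM A) (Z : Matrix κ κ ℂ) :
    (EB W A (Zᴴ * Z) - (EB W A Z)ᴴ * EB W A Z).PosSemidef := by
  have := EA_schwarz (sw_iso hW) hA Z
  rwa [EA_sw, EA_sw] at this

/-- The exchanged splitter is a splitter. -/
theorem split_sw {J : Type} [Fintype J] {s t s' t' : ℝ} {a : J → Matrix ι ι ℂ}
    {b : J → Matrix ι' ι' ℂ} {c : J → Matrix κ κ ℂ} {d : J → Matrix ε ε ℂ}
    {W : Matrix (κ × ε) (ι × ι') ℂ} (h : Split s t s' t' a b c d W) :
    Split t s t' s' b a c d (sw W) where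
  row1 := by have := h.row1; linarith
  row2 := by have := h.row2; linarith
  col1 := h.col2
  col2 := h.col1
  rows := by have := h.rows; linarith
  cols := by have := h.cols; linarith
  la := h.lb
  lb := h.la
  lc := h.lc
  ld := h.ld
  iso := sw_iso h.iso
  hc := fun j => by
    have e1 : ∀ M : Matrix (κ × ε) (κ × ε) ℂ, M * sw W = sw (M * W) := by
      intro M; ext x y; simp [sw, Matrix.mul_apply]
    have e2 : sw W * (((t : ℝ) : ℂ) • (b j ⊗ₖ (1 : Matrix ι ι ℂ)) +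
        ((s : ℝ) : ℂ) • ((1 : Matrix ι' ι' ℂ) ⊗ₖ a j)) =
        sw (W * (((s : ℝ) : ℂ) • (a j ⊗ₖ (1 : Matrix ι' ι' ℂ)) +
          ((t : ℝ) : ℂ) • ((1 : Matrix ι ι ℂ) ⊗ₖ b j))) := by
      rw [Matrix.mul_add, Matrix.mul_smul, Matrix.mul_smul, sw_mul_kron, sw_mul_kron,
        Matrix.mul_add, Matrix.mul_smul, Matrix.mul_smul]
      ext x y
      simp [sw]
      ring
    rw [e1, h.hc j, e2]
  hd := fun j => by
    have e1 : ∀ M : Matrix (κ × ε) (κ × ε) ℂ, M * sw W = sw (M * W) := by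
      intro M; ext x y; simp [sw, Matrix.mul_apply]
    have e2 : sw W * (((t' : ℝ) : ℂ) • (b j ⊗ₖ (1 : Matrix ι ι ℂ)) +
        ((s' : ℝ) : ℂ) • ((1 : Matrix ι' ι' ℂ) ⊗ₖ a j)) =
        sw (W * (((s' : ℝ) : ℂ) • (a j ⊗ₖ (1 : Matrix ι' ι' ℂ)) +
          ((t' : ℝ) : ℂ) • ((1 : Matrix ι ι ℂ) ⊗ₖ b j))) := by
      rw [Matrix.mul_add, Matrix.mul_smul, Matrix.mul_smul, sw_mul_kron, sw_mul_kron,
        Matrix.mul_add, Matrix.mul_smul, Matrix.mul_smul]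
      ext x y
      simp [sw]
      ring
    rw [e1, h.hd j, e2]

end

end Vale.Agent.P369.FD
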