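import Vale.Agent.P369.FD.MainStmts
import Vale.Agent.P369.H587.DpThm
import Vale.Agent.P369.H447.Gibbs
import Vale.Agent.P369.H688.BS

/-!
P369, track FD, package EB: uniform bounds at a minimiser of `FD` (competitor: the vacuum).
-/

set_option linter.all false

namespace Vale.Agent.P369.FD

open Matrix
open Vale.Agent.P369 (Conf up down ampn g)
open Vale.Agent.P369A (Ct)
open scoped Kronecker ComplexOrder

noncomputable section

namespace EbAux

variable {n : ℕ}

/-- the vacuum configuration -/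
def z0 (n X : ℕ) : Ct n X := ⟨0, by simp⟩

/-- the vacuum matrix -/
def vac (n X : ℕ) : Matrix (Ct n X) (Ct n X) ℂ :=
  diagonal fun k => ((if k = z0 n X then 1 else 0 : ℝ) : ℂ)

theorem vac_posSemidef (n X : ℕ) : (vac n X).PosSemidef := by
  apply Matrix.PosSemidef.diagonal
  intro k
  show (0 : ℂ) ≤ ((if k = z0 n X then 1 else 0 : ℝ) : ℂ)
  split_ifs
  · exact_mod_cast zero_le_one
  · simp

theorem vac_trace (n X : ℕ) : (vac n X).trace = 1 := by
  rw [vac, Matrix.trace_diagonal, Finset.sum_eq_single (z0 n X)]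
  · simp
  · intro b _ hb
    simp [hb]
  · simp

theorem vac_isDM (n X : ℕ) : IsDM (vac n X) := ⟨vac_posSemidef n X, vac_trace n X⟩

theorem ent_vac (n X : ℕ) : ent (vac n X) = 0 := by
  unfold vac
  rw [show ent (diagonal fun k : Ct n X => ((if k = z0 n X then 1 else 0 : ℝ) : ℂ)) =
    ∑ k : Ct n X, Real.negMulLog (if k = z0 n X then 1 else 0) from P369N.ent_diagonal _]
  refine Finset.sum_eq_zero fun k _ => ?_
  split_ifs <;> simp

theorem trace_fnum_vac (X : ℕ) (v : ℕ → ℝ) : (fnum (n := n) X v * vac n X).trace.re = v 0 := by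
  unfold fnum vac
  rw [Matrix.diagonal_mul_diagonal, Matrix.trace_diagonal, Finset.sum_eq_single (z0 n X)]
  · simp [z0]
  · intro b _ hb
    simp [hb]
  · simp

theorem bsW_z0 (η : ℝ) (D : ℕ) (x : Ct n (2 * D) × Ct n (2 * D)) :
    bsW n η D x (z0 n D, z0 n D) = if x = (z0 n (2 * D), z0 n (2 * D)) then 1 else 0 := by
  rcases x with ⟨k, l⟩
  unfold bsW
  by_cases h : (k, l) = (z0 n (2 * D), z0 n (2 * D))
  · rw [if_pos h]
    have hk : k = z0 n (2 * D) := congrArg Prod.fst h
    have hl : l = z0 n (2 * D) := congrArg Prod.snd h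
    subst hk hl
    simp only [z0]
    rw [P369.ampn_zero_zero]
    simp
  · rw [if_neg h]
    have : k.1 + l.1 ≠ (0 : Conf n) + 0 := by
      intro h0
      apply h
      have hk : k.1 = 0 := by
        funext j
        have := congrFun h0 j
        simp at this
        exact this.1
      have hl : l.1 = 0 := by
        funext j
        have := congrFun h0 j
        simp at this
        exact this.2
      exact Prod.ext (Subtype.ext hk) (Subtype.ext hl)
    have h1 := P369.ampn_hom (s := Real.sqrt η) (c := Real.sqrt (1 - η)) this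
    simp only [z0]
    rw [h1]
    simp

theorem outp_vac (η : ℝ) (D : ℕ) : outp (bsW n η D) (vac n D) (vac n D) = vac n (2 * D) := by
  ext k k'
  have h1 : (vac n D) ⊗ₖ (vac n D) = diagonal fun p : Ct n D × Ct n D =>
      (if p = (z0 n D, z0 n D) then (1 : ℂ) else 0) := by
    unfold vac
    rw [Matrix.diagonal_kronecker_diagonal]
    congr 1
    funext p
    rcases p with ⟨p, q⟩
    by_cases hp : p = z0 n D <;> by_cases hq : q = z0 n D <;> simp [hp, hq]
  have h2 : ∀ x x', (bsW n η D * ((vac n D) ⊗ₖ (vac n D)) * (bsW n η D)ᴴ) x x' =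
      bsW n η D x (z0 n D, z0 n D) * star (bsW n η D x' (z0 n D, z0 n D)) := by
    intro x x'
    rw [h1, Matrix.mul_apply, Finset.sum_eq_single (z0 n D, z0 n D)]
    · rw [Matrix.mul_diagonal, Matrix.conjTranspose_apply]
      simp
    · intro b _ hb
      rw [Matrix.mul_diagonal]
      simp [hb]
    · simp
  unfold outp ptrR
  simp only [h2, bsW_z0]
  rw [Finset.sum_eq_single (z0 n (2 * D))]
  · by_cases hk : k = z0 n (2 * D) <;> by_cases hk' : k' = z0 n (2 * D)
    · subst hk hk'; simp [vac]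
    · subst hk
      have : z0 n (2 * D) ≠ k' := fun h => hk' h.symm
      simp [vac, hk', Matrix.diagonal_apply_ne _ this]
    · subst hk'
      simp [vac, hk, Matrix.diagonal_apply_ne _ hk]
    · by_cases h : k = k'
      · subst h; simp [vac, hk]
      · simp [vac, hk, hk', Matrix.diagonal_apply_ne _ h]
  · intro l _ hl
    simp [hl]
  · simp

theorem eD_pos (D : ℕ) : 0 < eD D := Real.exp_pos _

theorem eD_le_one (D : ℕ) : eD D ≤ 1 := by
  unfold eD
  rw [Real.exp_le_one_iff]
  simp

theorem negMulLog_eD (D : ℕ) : Real.negMulLog (eD D) = D * eD D := by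
  unfold Real.negMulLog eD
  rw [Real.log_exp]
  ring

/-- upper bound of the entropy at the vacuum -/
theorem ent_vac_shift_le (X D : ℕ) :
    ent (vac n X + ((eD D : ℝ) : ℂ) • (1 : Matrix (Ct n X) (Ct n X) ℂ)) ≤
      (Fintype.card (Ct n X) : ℝ) * (D * eD D) := by
  have h1 : vac n X + ((eD D : ℝ) : ℂ) • (1 : Matrix (Ct n X) (Ct n X) ℂ) =
      diagonal fun k => (((if k = z0 n X then 1 else 0) + eD D : ℝ) : ℂ) := by
    unfold vac
    rw [← Matrix.diagonal_one, Matrix.smul_eq_diagonal_mul, Matrix.diagonal_mul_diagonal,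
      Matrix.diagonal_add]
    congr 1
    funext k
    push_cast
    simp
  rw [h1, show ent (diagonal fun k : Ct n X => (((if k = z0 n X then 1 else 0) + eD D : ℝ) : ℂ)) =
    ∑ k : Ct n X, Real.negMulLog ((if k = z0 n X then 1 else 0) + eD D) from P369N.ent_diagonal _]
  calc ∑ k : Ct n X, Real.negMulLog ((if k = z0 n X then 1 else 0) + eD D)
      ≤ ∑ k : Ct n X, (D * eD D : ℝ) := by
        refine Finset.sum_le_sum fun k _ => ?_
        split_ifs
        · have h2 : Real.negMulLog (1 + eD D) ≤ 0 := by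
            unfold Real.negMulLog
            have := Real.log_nonneg (show (1 : ℝ) ≤ 1 + eD D by linarith [eD_pos D])
            have h3 : 0 < 1 + eD D := by linarith [eD_pos D]
            nlinarith
          have h4 : 0 ≤ (D : ℝ) * eD D := by have := eD_pos D; positivity
          linarith
        · rw [zero_add, negMulLog_eD]
    _ = _ := by simp

/-- lower bound of the entropy of a shifted density matrix -/
theorem ent_shift_ge {κ : Type} [Fintype κ] [DecidableEq κ] {C₀ : Matrix κ κ ℂ} (h : IsDM C₀)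
    {e κ₀ : ℝ} (he : 0 < e) (hκ : (Fintype.card κ : ℝ) * e ≤ κ₀) :
    -((1 + κ₀) * κ₀) ≤ ent (C₀ + ((e : ℝ) : ℂ) • (1 : Matrix κ κ ℂ)) := by
  set C := C₀ + ((e : ℝ) : ℂ) • (1 : Matrix κ κ ℂ) with hC
  have h1 : (((e : ℝ) : ℂ) • (1 : Matrix κ κ ℂ)).PosSemidef :=
    Matrix.PosSemidef.one.smul (by exact_mod_cast he.le)
  have hCp : C.PosSemidef := h.1.add h1
  have htr : C.trace.re = 1 + Fintype.card κ * e := by
    rw [hC, Matrix.trace_add, h.2, Matrix.trace_smul, Matrix.trace_one]
    simp [mul_comm]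
  have hc0 : 0 ≤ (Fintype.card κ : ℝ) * e := by positivity
  rw [show ent C = ∑ i, Real.negMulLog (hCp.isHermitian.eigenvalues i) from P369V.ga_ent_eq _]
  have hsum : ∑ i, hCp.isHermitian.eigenvalues i = C.trace.re := by
    rw [hCp.isHermitian.trace_eq_sum_eigenvalues]
    simp
  set τ := C.trace.re with hτ
  have hτ1 : 1 ≤ τ := by rw [htr]; linarith
  have h2 : ∀ i, -(hCp.isHermitian.eigenvalues i * Real.log τ) ≤
      Real.negMulLog (hCp.isHermitian.eigenvalues i) := by
    intro i
    have h3 := hCp.eigenvalues_nonneg i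
    have h4 : hCp.isHermitian.eigenvalues i ≤ τ := P369H447.eigenvalues_le_trace hCp i
    unfold Real.negMulLog
    rcases h3.eq_or_lt with h5 | h5
    · rw [← h5]; simp
    · have h6 := Real.log_le_log h5 h4
      nlinarith
  have h7 : -(τ * Real.log τ) ≤ ∑ i, Real.negMulLog (hCp.isHermitian.eigenvalues i) := by
    calc -(τ * Real.log τ) = ∑ i, -(hCp.isHermitian.eigenvalues i * Real.log τ) := by
          rw [Finset.sum_neg_distrib, ← Finset.sum_mul, hsum]
      _ ≤ _ := Finset.sum_le_sum fun i _ => h2 i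
  have h8 : Real.log τ ≤ τ - 1 := Real.log_le_sub_one_of_pos (by linarith)
  have h9 : τ - 1 ≤ κ₀ := by rw [htr]; linarith
  have h10 : τ * Real.log τ ≤ (1 + κ₀) * κ₀ := by
    have h11 : 0 ≤ Real.log τ := Real.log_nonneg hτ1
    exact mul_le_mul (by linarith) (h8.trans h9) h11 (by linarith)
  linarith

/-- `(2D+1)^m e^(-D)` is bounded -/
theorem pow_mul_eD_le (m D : ℕ) : ((2 * D : ℕ) + 1 : ℝ) ^ m * eD D ≤
    2 ^ m * (m.factorial : ℝ) * Real.exp 1 := by
  have h1 := Real.pow_div_factorial_le_exp ((D : ℝ) + 1) (by positivity) m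
  have hf : (0 : ℝ) < (m.factorial : ℝ) := by exact_mod_cast m.factorial_pos
  rw [div_le_iff₀ hf] at h1
  have h2 : ((2 * D : ℕ) + 1 : ℝ) ^ m ≤ 2 ^ m * ((D : ℝ) + 1) ^ m := by
    rw [← mul_pow]
    apply pow_le_pow_left₀ (by positivity)
    push_cast
    linarith
  have h3 : Real.exp ((D : ℝ) + 1) * eD D = Real.exp 1 := by
    unfold eD
    rw [← Real.exp_add]
    congr 1
    ring
  calc ((2 * D : ℕ) + 1 : ℝ) ^ m * eD D ≤ 2 ^ m * ((D : ℝ) + 1) ^ m * eD D :=
        mul_le_mul_of_nonneg_right h2 (eD_pos D).le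
    _ ≤ 2 ^ m * (Real.exp ((D : ℝ) + 1) * m.factorial) * eD D := by
        apply mul_le_mul_of_nonneg_right _ (eD_pos D).le
        exact mul_le_mul_of_nonneg_left h1 (by positivity)
    _ = 2 ^ m * (m.factorial : ℝ) * (Real.exp ((D : ℝ) + 1) * eD D) := by ring
    _ = _ := by rw [h3]

theorem diag_nonneg' {X : ℕ} {A : Matrix (Ct n X) (Ct n X) ℂ} (hA : A.PosSemidef) (k : Ct n X) :
    0 ≤ (A k k).re := (Complex.le_def.1 (hA.diag_nonneg (i := k))).1

theorem trace_fnum (X : ℕ) (v : ℕ → ℝ) (A : Matrix (Ct n X) (Ct n X) ℂ) :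
    (fnum X v * A).trace.re = ∑ k : Ct n X, v (∑ j, k.1 j) * (A k k).re := by
  unfold fnum
  rw [Matrix.trace, Complex.re_sum]
  refine Finset.sum_congr rfl fun k _ => ?_
  rw [Matrix.diag_apply, Matrix.diagonal_mul, Complex.re_ofReal_mul]

theorem enr_nonneg {X : ℕ} {A : Matrix (Ct n X) (Ct n X) ℂ} (hA : A.PosSemidef) : 0 ≤ enr A := by
  unfold enr tot
  exact Finset.sum_nonneg fun k _ => mul_nonneg (by positivity) (diag_nonneg' hA k)

theorem trace_fnum_nonneg {X : ℕ} {A : Matrix (Ct n X) (Ct n X) ℂ} (hA : A.PosSemidef)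
    {v : ℕ → ℝ} (hv : ∀ k, 0 ≤ v k) : 0 ≤ (fnum X v * A).trace.re := by
  rw [trace_fnum]
  exact Finset.sum_nonneg fun k _ => mul_nonneg (hv _) (diag_nonneg' hA k)

theorem trace_pD (X : ℕ) (δη lam : ℝ) (A : Matrix (Ct n X) (Ct n X) ℂ) :
    (pD n δη lam X * A).trace.re = δη * enr A +
      wD lam X * (fnum X (fun k => lam ^ k) * A).trace.re := by
  unfold pD
  rw [trace_fnum, trace_fnum, enr, Finset.mul_sum, Finset.mul_sum, ← Finset.sum_add_distrib]
  refine Finset.sum_congr rfl fun k _ => ?_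
  unfold tot
  ring

theorem bb_pos {N : ℝ} (hN : 0 < N) : 0 < bb N := by
  unfold bb
  apply Real.log_pos
  have : 0 < 1 / N := by positivity
  linarith

theorem bb_le {N : ℝ} (hN : 0 < N) : bb N ≤ 1 / N := by
  unfold bb
  have h : 0 < 1 / N := by positivity
  have := Real.log_le_sub_one_of_pos (show 0 < 1 + 1 / N by linarith)
  linarith

theorem g_nonneg' {N : ℝ} (hN : 0 < N) : 0 ≤ g N := by
  rw [P369.g_eq hN]
  have h1 : 0 < P369.beta N := P369H447.beta_pos hN
  have h2 : 0 ≤ Real.log (1 + N) := Real.log_nonneg (by linarith)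
  positivity

theorem wD_pos {lam : ℝ} (h : 1 < lam) (D : ℕ) : 0 < wD lam D := by
  unfold wD
  have : 0 < Real.sqrt lam := Real.sqrt_pos.2 (by linarith)
  positivity

theorem wD_le_one {lam : ℝ} (h : 1 < lam) (D : ℕ) : wD lam D ≤ 1 := by
  unfold wD
  apply inv_le_one_of_one_le₀
  apply one_le_pow₀
  rw [Real.one_le_sqrt]
  exact h.le

/-- entropy against energy with a small coefficient -/
theorem ent_le_small {s t : ℝ} (hs : 0 < s) (ht : 0 < t) {X : ℕ}
    {A : Matrix (Ct n X) (Ct n X) ℂ} (hA : IsDM A) :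
    s * ent A ≤ t * enr A + s * (n * g (s / t)) := by
  have hN : 0 < s / t := by positivity
  have h1 := thm_GIBBS n X A hA (s / t) hN
  have h2 : bb (s / t) ≤ t / s := by
    have := bb_le hN
    rwa [one_div_div] at this
  have hE := enr_nonneg hA.1
  have h3 : bb (s / t) * (enr A - n * (s / t)) ≤ t / s * enr A := by
    have h4 : bb (s / t) * (enr A - n * (s / t)) ≤ bb (s / t) * enr A := by
      apply mul_le_mul_of_nonneg_left _ (bb_pos hN).le
      have : 0 ≤ (n : ℝ) * (s / t) := by positivity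
      linarith
    exact h4.trans (mul_le_mul_of_nonneg_right h2 hE)
  have h5 := mul_le_mul_of_nonneg_left (h1.trans (add_le_add_left h3 _)) hs.le
  have h6 : s * (t / s * enr A + n * g (s / t)) = t * enr A + s * (n * g (s / t)) := by
    field_simp
  linarith

end EbAux

open EbAux in
/-- Package EB. -/
theorem thm_EB : S_EB := by
  intro n η NA NB δ lam hη0 hη1 hNA hNB hδ hlam
  set M : ℝ := η * NA + (1 - η) * NB with hM
  have hη1' : 0 < 1 - η := by linarith
  have hMp : 0 < M := by positivity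
  set TC : ℝ := 1 / bb M with hTC
  have hTCp : 0 < TC := by have := bb_pos hMp; positivity
  set sA : ℝ := (1 + δ) * η / bb NA with hsA
  have hsAp : 0 < sA := by have := bb_pos hNA; positivity
  set sB : ℝ := (1 + δ) * (1 - η) / bb NB with hsB
  have hsBp : 0 < sB := by have := bb_pos hNB; positivity
  set tA : ℝ := δ * η / 2 with htA
  have htAp : 0 < tA := by positivity
  set tB : ℝ := δ * (1 - η) / 2 with htB
  have htBp : 0 < tB := by positivity
  set κ₀ : ℝ := 2 ^ n * (n.factorial : ℝ) * Real.exp 1 with hκ₀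
  have hκ₀p : 0 < κ₀ := by positivity
  set κ₁ : ℝ := 2 ^ (n + 1) * ((n + 1).factorial : ℝ) * Real.exp 1 with hκ₁
  have hκ₁p : 0 < κ₁ := by positivity
  set cA : ℝ := sA * (n * g (sA / tA)) with hcA
  have hcA0 : 0 ≤ cA := by
    have := g_nonneg' (show 0 < sA / tA by positivity); positivity
  set cB : ℝ := sB * (n * g (sB / tB)) with hcB
  have hcB0 : 0 ≤ cB := by
    have := g_nonneg' (show 0 < sB / tB by positivity); positivity
  set K₃ : ℝ := TC * κ₁ + 2 + TC * ((1 + κ₀) * κ₀) + cA + cB with hK₃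
  have hK₃p : 0 < K₃ := by positivity
  refine ⟨K₃ * (1 + 1 / tA + 1 / tB), by positivity, ?_⟩
  intro D hD A B hA hB hmin
  -- the competitor
  have hcomp := hmin (vac n D) (vac n D) (vac_isDM n D) (vac_isDM n D)
  have hcard : (Fintype.card (Ct n (2 * D)) : ℝ) ≤ (((2 * D : ℕ) : ℝ) + 1) ^ n :=
    P369H447.card_Ct_le n (2 * D)
  have hcard0 : (0 : ℝ) ≤ (Fintype.card (Ct n (2 * D)) : ℝ) := by positivity
  have hup : FD n η NA NB δ lam D (vac n D) (vac n D) ≤ TC * κ₁ + 2 := by
    unfold FD Fun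
    rw [outp_vac, ent_vac, trace_pD, trace_pD, trace_fnum_vac]
    have hE : enr (vac n D) = 0 := by
      unfold enr vac
      refine Finset.sum_eq_zero fun k _ => ?_
      by_cases hk : k = z0 n D
      · subst hk; simp [tot, z0]
      · simp [hk]
    rw [hE]
    have h1 := ent_vac_shift_le (n := n) (2 * D) D
    have h2 : (Fintype.card (Ct n (2 * D)) : ℝ) * (D * eD D) ≤ κ₁ := by
      have h3 := pow_mul_eD_le (n + 1) D
      have h4 : (D : ℝ) ≤ ((2 * D : ℕ) : ℝ) + 1 := by push_cast; linarith [(Nat.cast_nonneg D : (0:ℝ) ≤ D)]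
      calc (Fintype.card (Ct n (2 * D)) : ℝ) * (D * eD D)
          ≤ (((2 * D : ℕ) : ℝ) + 1) ^ n * ((((2 * D : ℕ) : ℝ) + 1) * eD D) := by
            apply mul_le_mul hcard _ (by have := eD_pos D; positivity) (by positivity)
            exact mul_le_mul_of_nonneg_right h4 (eD_pos D).le
        _ = (((2 * D : ℕ) : ℝ) + 1) ^ (n + 1) * eD D := by ring
        _ ≤ κ₁ := h3
    have h5 : TC * ent (vac n (2 * D) + ((eD D : ℝ) : ℂ) • (1 : Matrix (Ct n (2 * D)) (Ct n (2 * D)) ℂ))
        ≤ TC * κ₁ := mul_le_mul_of_nonneg_left (h1.trans h2) hTCp.le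
    have h6 := wD_le_one hlam D
    simp only [pow_zero, mul_one, mul_zero, zero_add, sub_zero] at h5 ⊢
    linarith
  have hlow : FD n η NA NB δ lam D A B ≥ -(TC * ((1 + κ₀) * κ₀)) + (δ * η * enr A +
      wD lam D * (fnum D (fun k => lam ^ k) * A).trace.re) + (δ * (1 - η) * enr B +
      wD lam D * (fnum D (fun k => lam ^ k) * B).trace.re) - (tA * enr A + cA) -
      (tB * enr B + cB) := by
    unfold FD Fun
    rw [trace_pD, trace_pD]
    have h1 : -((1 + κ₀) * κ₀) ≤ ent (outp (bsW n η D) A B +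
        ((eD D : ℝ) : ℂ) • (1 : Matrix (Ct n (2 * D)) (Ct n (2 * D)) ℂ)) := by
      refine ent_shift_ge (isDM_outp (thm_BS n η hη0.le hη1.le D).iso hA hB) (eD_pos D) ?_
      · calc (Fintype.card (Ct n (2 * D)) : ℝ) * eD D
            ≤ (((2 * D : ℕ) : ℝ) + 1) ^ n * eD D :=
              mul_le_mul_of_nonneg_right hcard (eD_pos D).le
          _ ≤ κ₀ := pow_mul_eD_le n D
    have h2 := mul_le_mul_of_nonneg_left h1 hTCp.le
    have h3 := ent_le_small hsAp htAp hA
    have h4 := ent_le_small hsBp htBp hB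
    linarith
  have hw := wD_pos hlam D
  have hEA := enr_nonneg hA.1
  have hEB := enr_nonneg hB.1
  have hPA : 0 ≤ (fnum D (fun k => lam ^ k) * A).trace.re :=
    trace_fnum_nonneg hA.1 fun k => by positivity
  have hPB : 0 ≤ (fnum D (fun k => lam ^ k) * B).trace.re :=
    trace_fnum_nonneg hB.1 fun k => by positivity
  have hPA' := mul_nonneg hw.le hPA
  have hPB' := mul_nonneg hw.le hPB
  have hmain : tA * enr A + tB * enr B + wD lam D * (fnum D (fun k => lam ^ k) * A).trace.re +
      wD lam D * (fnum D (fun k => lam ^ k) * B).trace.re ≤ K₃ := by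
    have e1 : δ * η = 2 * tA := by rw [htA]; ring
    have e2 : δ * (1 - η) = 2 * tB := by rw [htB]; ring
    rw [e1, e2] at hlow
    linarith
  have htEA := mul_nonneg htAp.le hEA
  have htEB := mul_nonneg htBp.le hEB
  have hKt1 : K₃ ≤ K₃ * (1 + 1 / tA + 1 / tB) := by
    have : 0 ≤ K₃ * (1 / tA + 1 / tB) := by positivity
    linarith
  refine ⟨?_, ?_, by linarith, by linarith⟩
  · have h1 : enr A ≤ K₃ / tA := by
      rw [le_div_iff₀ htAp]; linarith
    have h2 : K₃ / tA ≤ K₃ * (1 + 1 / tA + 1 / tB) := by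
      have : 0 ≤ K₃ * (1 + 1 / tB) := by positivity
      have h3 : K₃ / tA = K₃ * (1 / tA) := by ring
      linarith
    exact h1.trans h2
  · have h1 : enr B ≤ K₃ / tB := by
      rw [le_div_iff₀ htBp]; linarith
    have h2 : K₃ / tB ≤ K₃ * (1 + 1 / tA + 1 / tB) := by
      have : 0 ≤ K₃ * (1 + 1 / tA) := by positivity
      have h3 : K₃ / tB = K₃ * (1 / tB) := by ring
      linarith
    exact h1.trans h2

end

end Vale.Agent.P369.FD
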